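import Vale.Agent.P139.A.Defs
import Mathlib

/-! # P139: full support of sequences of independent complex Gaussians in weighted l2 -/

open Set Metric Filter Topology MeasureTheory ProbabilityTheory
open scoped NNReal ENNReal

namespace Vale.Agent.P139.R3.H842

open Vale.Agent.P139.A

theorem measurable_mk : Measurable fun z : ℝ × ℝ => (⟨z.1, z.2⟩ : ℂ) :=
  Complex.measurableEquivRealProd.symm.measurable

theorem gauss_pos (x : ℝ) {r : ℝ} (hr : 0 < r) :
    0 < gaussianReal 0 (1 / 2) (Ioo (x - r) (x + r)) := by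
  rw [pos_iff_ne_zero]
  intro h
  have h1 := gaussianReal_absolutelyContinuous' 0 (v := 1 / 2) (by norm_num) h
  rw [Real.volume_Ioo] at h1
  simp only [ENNReal.ofReal_eq_zero] at h1
  linarith

theorem std_pos (c : ℂ) {r : ℝ} (hr : 0 < r) : 0 < stdComplexGaussian (closedBall c r) := by
  unfold stdComplexGaussian
  rw [Measure.map_apply measurable_mk measurableSet_closedBall]
  refine lt_of_lt_of_le ?_ (measure_mono
    (s := Ioo (c.re - r / 2) (c.re + r / 2) ×ˢ Ioo (c.im - r / 2) (c.im + r / 2)) ?_)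
  · rw [Measure.prod_prod]
    have h1 := gauss_pos c.re (half_pos hr)
    have h2 := gauss_pos c.im (half_pos hr)
    exact ENNReal.mul_pos h1.ne' h2.ne'
  · rintro ⟨x, y⟩ ⟨hx, hy⟩
    simp only [mem_preimage, mem_closedBall, dist_eq_norm]
    have h1 : ‖(⟨x, y⟩ : ℂ) - c‖ ≤ |x - c.re| + |y - c.im| := by
      have := Complex.norm_le_abs_re_add_abs_im ((⟨x, y⟩ : ℂ) - c)
      simpa using this
    simp only [mem_Ioo] at hx hy
    have h2 : |x - c.re| ≤ r / 2 := abs_le.2 ⟨by linarith [hx.1], by linarith [hx.2]⟩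
    have h3 : |y - c.im| ≤ r / 2 := abs_le.2 ⟨by linarith [hy.1], by linarith [hy.2]⟩
    linarith

theorem enorm_sq (z : ℂ) : ‖z‖ₑ ^ 2 = ENNReal.ofReal (‖z‖ ^ 2) := by
  rw [← ofReal_norm, ENNReal.ofReal_pow (norm_nonneg _)]

theorem std_moment : ∫⁻ z, ‖z‖ₑ ^ 2 ∂stdComplexGaussian < ∞ := by
  unfold stdComplexGaussian
  rw [lintegral_map (by fun_prop) measurable_mk]
  have h1 : Integrable (fun x : ℝ => x ^ 2) (gaussianReal 0 (1 / 2)) :=
    (memLp_id_gaussianReal 2).integrable_sq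
  have h2 : Integrable (fun z : ℝ × ℝ => z.1 ^ 2)
      ((gaussianReal 0 (1 / 2)).prod (gaussianReal 0 (1 / 2))) := h1.comp_fst _
  have h3 : Integrable (fun z : ℝ × ℝ => z.2 ^ 2)
      ((gaussianReal 0 (1 / 2)).prod (gaussianReal 0 (1 / 2))) := h1.comp_snd _
  refine lt_of_le_of_lt (lintegral_mono (g := fun z : ℝ × ℝ => ‖z.1 ^ 2 + z.2 ^ 2‖ₑ)
    fun z => ?_) (hasFiniteIntegral_iff_enorm.1 (h2.add h3).2)
  show ‖(⟨z.1, z.2⟩ : ℂ)‖ₑ ^ 2 ≤ ‖z.1 ^ 2 + z.2 ^ 2‖ₑ
  rw [enorm_sq, ← ofReal_norm]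
  apply ENNReal.ofReal_le_ofReal
  rw [Complex.sq_norm, Complex.normSq_mk, Real.norm_of_nonneg (by positivity)]
  apply le_of_eq
  ring

variable {ι : Type*} [Countable ι]

theorem meas_tail {Ω : Type*} [MeasurableSpace Ω] (g : ι → Ω → ℂ) (s : Finset ι)
    (c : ι → ℝ≥0∞) [DecidableEq ι] (h : ∀ n ∉ s, Measurable (g n)) :
    Measurable fun ω => ∑' n, if n ∈ s then 0 else c n * ‖g n ω‖ₑ ^ 2 := by
  refine Measurable.tsum fun n => ?_
  by_cases hn : n ∈ s
  · simp only [hn, if_true]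
    exact measurable_const
  · simp only [hn, if_false]
    exact ((h n hn).enorm.pow_const 2).const_mul _

omit [Countable ι] in
theorem meas_low {Ω : Type*} [MeasurableSpace Ω] (g : ι → Ω → ℂ) (s : Finset ι) (b : ι → ℂ)
    (r : ℝ) (h : ∀ n ∈ s, Measurable (g n)) :
    MeasurableSet (⋂ n ∈ s, g n ⁻¹' closedBall (b n) r) :=
  Finset.measurableSet_biInter _ fun n hn => h n hn measurableSet_closedBall

omit [Countable ι] in
/-- Tails of a summable family. -/
theorem exists_tail {q : ι → ℝ} (hq : Summable q) {η : ℝ} (hη : 0 < η) :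
    ∃ s₀ : Finset ι, ∀ s : Finset ι, s₀ ⊆ s → (∑' n, q n) - η < ∑ n ∈ s, q n := by
  have h1 : Tendsto (fun s : Finset ι => ∑ n ∈ s, q n) atTop (𝓝 (∑' n, q n)) := hq.hasSum
  obtain ⟨s₀, h⟩ := eventually_atTop.1 (h1.eventually (lt_mem_nhds (sub_lt_self _ hη)))
  exact ⟨s₀, fun s hs => h s hs⟩

omit [Countable ι] in
theorem tsum_tail {q : ι → ℝ} [DecidableEq ι] (hq : Summable q) (s : Finset ι) {η : ℝ}
    (h : (∑' n, q n) - η < ∑ n ∈ s, q n) :
    Summable (fun n => if n ∈ s then 0 else q n) ∧ ∑' n, (if n ∈ s then 0 else q n) < η := by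
  have h2 : Summable fun n => if n ∈ s then q n else 0 :=
    summable_of_ne_finset_zero (s := s) fun n hn => by simp [hn]
  have h1 : ∀ n, (if n ∈ s then 0 else q n) = q n - (if n ∈ s then q n else 0) := fun n => by
    split_ifs <;> simp
  refine ⟨(hq.sub h2).congr fun n => (h1 n).symm, ?_⟩
  have h3 : (∑' n, if n ∈ s then q n else 0) = ∑ n ∈ s, q n := by
    rw [tsum_eq_sum (s := s) (fun n hn => if_neg hn)]
    exact Finset.sum_congr rfl fun n hn => if_pos hn
  rw [tsum_congr h1, hq.tsum_sub h2, h3]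
  linarith

/-- The tail is small with positive probability. -/
theorem tail_pos {Ω : Type*} [MeasurableSpace Ω] (P : Measure Ω) [IsProbabilityMeasure P]
    [DecidableEq ι] (g : ι → Ω → ℂ) (hm : ∀ n, Measurable (g n))
    (hg : ∀ n, P.map (g n) = stdComplexGaussian) {q : ι → ℝ} (hq0 : ∀ n, 0 ≤ q n)
    (s : Finset ι) (hqs : Summable fun n => if n ∈ s then 0 else q n) {δ : ℝ} (hδ : 0 < δ)
    (hqt : (∑' n, if n ∈ s then 0 else q n) *
      ((∫⁻ z, ‖z‖ₑ ^ 2 ∂stdComplexGaussian).toReal + 1) ≤ δ / 2) :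
    0 < P {ω | (∑' n, if n ∈ s then 0 else ENNReal.ofReal (q n) * ‖g n ω‖ₑ ^ 2) <
      ENNReal.ofReal δ} := by
  set mom : ℝ≥0∞ := ∫⁻ z, ‖z‖ₑ ^ 2 ∂stdComplexGaussian with hmom
  have hmomT : mom ≠ ∞ := std_moment.ne
  have hm0 : 0 ≤ mom.toReal := ENNReal.toReal_nonneg
  set q' : ι → ℝ := fun n => if n ∈ s then 0 else q n with hq'
  have hq'0 : ∀ n, 0 ≤ q' n := fun n => by simp only [hq']; split_ifs <;> simp [hq0]
  have hS0 : 0 ≤ ∑' n, q' n := tsum_nonneg hq'0
  set τ : Ω → ℝ≥0∞ := fun ω => ∑' n, if n ∈ s then 0 else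
    ENNReal.ofReal (q n) * ‖g n ω‖ₑ ^ 2 with hτ
  have hτm : Measurable τ := meas_tail g s _ fun n _ => hm n
  have hτi : ∫⁻ ω, τ ω ∂P ≤ ENNReal.ofReal (δ / 2) := by
    have h1 : ∀ n, Measurable fun ω => if n ∈ s then (0 : ℝ≥0∞) else
        ENNReal.ofReal (q n) * ‖g n ω‖ₑ ^ 2 := by
      intro n
      by_cases hn : n ∈ s
      · simp only [hn, if_true]; exact measurable_const
      · simp only [hn, if_false]; exact ((hm n).enorm.pow_const 2).const_mul _
    simp only [hτ]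
    rw [lintegral_tsum fun n => (h1 n).aemeasurable]
    have h2 : ∀ n, ∫⁻ ω, (if n ∈ s then (0 : ℝ≥0∞) else
        ENNReal.ofReal (q n) * ‖g n ω‖ₑ ^ 2) ∂P = ENNReal.ofReal (q' n) * mom := by
      intro n
      by_cases hn : n ∈ s
      · simp [hn, hq']
      · simp only [hn, hq', if_false]
        rw [lintegral_const_mul _ ((hm n).enorm.pow_const 2), hmom, ← hg n,
          lintegral_map (by fun_prop) (hm n)]
    simp_rw [h2]
    rw [ENNReal.tsum_mul_right, ← ENNReal.ofReal_tsum_of_nonneg hq'0 hqs,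
      ← ENNReal.ofReal_toReal hmomT, ← ENNReal.ofReal_mul (tsum_nonneg hq'0)]
    apply ENNReal.ofReal_le_ofReal
    refine le_trans ?_ hqt
    nlinarith
  have h1 := mul_meas_ge_le_lintegral (μ := P) hτm (ENNReal.ofReal δ)
  have h2 : P {ω | ENNReal.ofReal δ ≤ τ ω} ≤ 1 / 2 := by
    have h3 : ENNReal.ofReal δ * P {ω | ENNReal.ofReal δ ≤ τ ω} ≤
        ENNReal.ofReal δ * (1 / 2) := by
      refine (h1.trans hτi).trans (le_of_eq ?_)
      rw [show (1 / 2 : ℝ≥0∞) = ENNReal.ofReal (1 / 2) by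
        rw [ENNReal.ofReal_div_of_pos (by norm_num)]; simp, ← ENNReal.ofReal_mul (by positivity)]
      congr 1
      ring
    exact (ENNReal.mul_le_mul_iff_right (ENNReal.ofReal_pos.2 (by positivity)).ne'
      ENNReal.ofReal_ne_top).1 h3
  have h3 : {ω | τ ω < ENNReal.ofReal δ} = {ω | ENNReal.ofReal δ ≤ τ ω}ᶜ := by
    ext ω; simp
  show 0 < P {ω | τ ω < ENNReal.ofReal δ}
  rw [h3, prob_compl_eq_one_sub (measurableSet_le measurable_const hτm)]
  have h4 : (1 / 2 : ℝ≥0∞) < 1 := by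
    rw [one_div]; exact ENNReal.one_half_lt_one
  exact tsub_pos_of_lt (h2.trans_lt h4)

/-- A weighted sum of squares of independent complex Gaussians, each with its own centre, is small
with positive probability. -/
theorem ball_pos {Ω : Type*} [mΩ : MeasurableSpace Ω] (P : Measure Ω) [IsProbabilityMeasure P]
    (g : ι → Ω → ℂ) (hm : ∀ n, Measurable (g n)) (hind : iIndepFun g P)
    (hg : ∀ n, P.map (g n) = stdComplexGaussian) {q : ι → ℝ} (hq0 : ∀ n, 0 ≤ q n)
    (hq : Summable q) (b : ι → ℂ) (hb : Summable fun n => q n * ‖b n‖ ^ 2) {ε : ℝ} (hε : 0 < ε) :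
    0 < P {ω | Summable (fun n => q n * ‖g n ω - b n‖ ^ 2) ∧
      ∑' n, q n * ‖g n ω - b n‖ ^ 2 < ε} := by
  classical
  set mo : ℝ := (∫⁻ z, ‖z‖ₑ ^ 2 ∂stdComplexGaussian).toReal with hmo
  have hm0 : 0 ≤ mo := ENNReal.toReal_nonneg
  obtain ⟨s₁, hs₁⟩ := exists_tail hq (η := ε / (16 * (mo + 1))) (by positivity)
  obtain ⟨s₂, hs₂⟩ := exists_tail hb (η := ε / 16) (by positivity)
  set s : Finset ι := s₁ ∪ s₂ with hs
  obtain ⟨hqs, hqt⟩ := tsum_tail hq s (hs₁ s Finset.subset_union_left)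
  obtain ⟨hbs, hbt⟩ := tsum_tail hb s (hs₂ s Finset.subset_union_right)
  have hB := tail_pos P g hm hg hq0 s hqs (δ := ε / 8) (by positivity) (by
    rw [← hmo]
    calc (∑' n, if n ∈ s then 0 else q n) * (mo + 1) ≤ ε / (16 * (mo + 1)) * (mo + 1) := by
          gcongr
      _ = ε / 8 / 2 := by field_simp; ring)
  set τ : Ω → ℝ≥0∞ := fun ω => ∑' n, if n ∈ s then 0 else
    ENNReal.ofReal (q n) * ‖g n ω‖ₑ ^ 2 with hτ
  set Q : ℝ := ∑ n ∈ s, q n with hQ
  have hQ0 : 0 ≤ Q := Finset.sum_nonneg fun n _ => hq0 n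
  set r : ℝ := min 1 (ε / (4 * (Q + 1))) with hr
  have hr0 : 0 < r := by rw [hr]; exact lt_min one_pos (by positivity)
  have hr2 : Q * r ^ 2 ≤ ε / 4 := by
    have h1 : r ≤ 1 := min_le_left _ _
    have h2 : r ≤ ε / (4 * (Q + 1)) := min_le_right _ _
    have h3 : r ^ 2 ≤ ε / (4 * (Q + 1)) := by nlinarith
    calc Q * r ^ 2 ≤ (Q + 1) * (ε / (4 * (Q + 1))) := by gcongr; linarith
      _ = ε / 4 := by field_simp
  have hA : 0 < P (⋂ n ∈ s, g n ⁻¹' closedBall (b n) r) := by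
    rw [hind.measure_inter_preimage_eq_mul s fun n _ => measurableSet_closedBall]
    rw [pos_iff_ne_zero, Finset.prod_ne_zero_iff]
    intro n _
    rw [← Measure.map_apply (hm n) measurableSet_closedBall, hg n]
    exact (std_pos (b n) hr0).ne'
  have hI := indep_iSup_of_disjoint (m := fun n => MeasurableSpace.comap (g n) inferInstance)
    (fun n => (hm n).comap_le) hind (S := (s : Set ι)) (T := (s : Set ι)ᶜ)
    disjoint_compl_right
  have hAm : MeasurableSet[⨆ n ∈ (s : Set ι), MeasurableSpace.comap (g n) inferInstance]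
      (⋂ n ∈ s, g n ⁻¹' closedBall (b n) r) :=
    @meas_low ι Ω (⨆ n ∈ (s : Set ι), MeasurableSpace.comap (g n) inferInstance) g s b r
      fun n hn => Measurable.of_comap_le
        (le_iSup₂_of_le (f := fun n (_ : n ∈ (s : Set ι)) =>
          MeasurableSpace.comap (g n) inferInstance) n hn le_rfl)
  have hBm : MeasurableSet[⨆ n ∈ (s : Set ι)ᶜ, MeasurableSpace.comap (g n) inferInstance]
      {ω | τ ω < ENNReal.ofReal (ε / 8)} := by
    have h1 := @meas_tail ι _ Ω (⨆ n ∈ (s : Set ι)ᶜ, MeasurableSpace.comap (g n) inferInstance)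
      g s (fun n => ENNReal.ofReal (q n)) _ fun n hn => Measurable.of_comap_le
        (le_iSup₂_of_le (f := fun n (_ : n ∈ (s : Set ι)ᶜ) =>
          MeasurableSpace.comap (g n) inferInstance) n hn le_rfl)
    exact h1 measurableSet_Iio
  have hAB := (Indep_iff _ _ _).1 hI _ _ hAm hBm
  have hpos : 0 < P ((⋂ n ∈ s, g n ⁻¹' closedBall (b n) r) ∩
      {ω | τ ω < ENNReal.ofReal (ε / 8)}) := by
    rw [hAB]
    exact ENNReal.mul_pos hA.ne' hB.ne'
  refine hpos.trans_le (measure_mono ?_)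
  rintro ω ⟨hω1, hω2⟩
  simp only [mem_iInter, mem_preimage, mem_closedBall, dist_eq_norm] at hω1
  simp only [mem_ofPred_eq] at hω2 ⊢
  -- real form of the tail
  have hnn : ∀ n, 0 ≤ if n ∈ s then (0 : ℝ) else q n * ‖g n ω‖ ^ 2 := fun n => by
    split_ifs
    · exact le_rfl
    · exact mul_nonneg (hq0 n) (sq_nonneg _)
  have hE : τ ω = ∑' n, ENNReal.ofReal (if n ∈ s then (0 : ℝ) else q n * ‖g n ω‖ ^ 2) := by
    simp only [hτ]
    refine tsum_congr fun n => ?_
    by_cases hn : n ∈ s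
    · simp [hn]
    · simp only [hn, if_false]
      rw [ENNReal.ofReal_mul (hq0 n), enorm_sq]
  rw [hE] at hω2
  have hsum : Summable fun n => if n ∈ s then (0 : ℝ) else q n * ‖g n ω‖ ^ 2 :=
    (ENNReal.summable_toReal (hω2.trans ENNReal.ofReal_lt_top).ne).congr
      fun n => ENNReal.toReal_ofReal (hnn n)
  rw [← ENNReal.ofReal_tsum_of_nonneg hnn hsum, ENNReal.ofReal_lt_ofReal_iff (by positivity)] at hω2
  have hlow : Summable fun n => if n ∈ s then q n * r ^ 2 else 0 :=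
    summable_of_ne_finset_zero (s := s) fun n hn => by simp [hn]
  have hlowS : (∑' n, if n ∈ s then q n * r ^ 2 else 0) = Q * r ^ 2 := by
    rw [tsum_eq_sum (s := s) (fun n hn => if_neg hn), Finset.sum_congr rfl fun n hn => if_pos hn,
      hQ, Finset.sum_mul]
  have hle : ∀ n, q n * ‖g n ω - b n‖ ^ 2 ≤ (if n ∈ s then q n * r ^ 2 else 0) +
      (2 * (if n ∈ s then (0 : ℝ) else q n * ‖g n ω‖ ^ 2) +
        2 * (if n ∈ s then (0 : ℝ) else q n * ‖b n‖ ^ 2)) := by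
    intro n
    by_cases hn : n ∈ s
    · simp only [hn, if_true, mul_zero, add_zero]
      have h1 := hω1 n hn
      have h2 := hq0 n
      gcongr
    · simp only [hn, if_false, zero_add]
      have h1 : ‖g n ω - b n‖ ≤ ‖g n ω‖ + ‖b n‖ := norm_sub_le _ _
      have h2 := hq0 n
      have h3 : ‖g n ω - b n‖ ^ 2 ≤ 2 * ‖g n ω‖ ^ 2 + 2 * ‖b n‖ ^ 2 := by
        nlinarith [norm_nonneg (g n ω - b n), sq_nonneg (‖g n ω‖ - ‖b n‖), norm_nonneg (g n ω),
          norm_nonneg (b n)]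
      calc q n * ‖g n ω - b n‖ ^ 2 ≤ q n * (2 * ‖g n ω‖ ^ 2 + 2 * ‖b n‖ ^ 2) := by gcongr
        _ = _ := by ring
  have hR := hlow.add ((hsum.mul_left 2).add (hbs.mul_left 2))
  have hS : Summable fun n => q n * ‖g n ω - b n‖ ^ 2 :=
    Summable.of_nonneg_of_le (fun n => mul_nonneg (hq0 n) (sq_nonneg _)) hle hR
  refine ⟨hS, ?_⟩
  calc ∑' n, q n * ‖g n ω - b n‖ ^ 2 ≤ _ := hS.tsum_le_tsum hle hR
    _ = Q * r ^ 2 + (2 * (∑' n, if n ∈ s then (0 : ℝ) else q n * ‖g n ω‖ ^ 2) +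
        2 * (∑' n, if n ∈ s then (0 : ℝ) else q n * ‖b n‖ ^ 2)) := by
        rw [hlow.tsum_add ((hsum.mul_left 2).add (hbs.mul_left 2)),
          (hsum.mul_left 2).tsum_add (hbs.mul_left 2), tsum_mul_left, tsum_mul_left, hlowS]
    _ < ε := by linarith

end Vale.Agent.P139.R3.H842
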