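import Vale.Agent.P139.R3.H842.Ball
import Vale.Agent.P139.H203.Small

/-! # P139: the law of the random datum charges every ball of `H^k` for every `α > k + d / 2` -/

open Set Metric Filter Topology MeasureTheory ProbabilityTheory
open scoped NNReal ENNReal

namespace Vale.Agent.P139.R3.H842

open Vale.Agent.P139.A

variable {d k : ℕ}

theorem sqNorm_nonneg (n : Fin d → ℤ) : 0 ≤ sqNorm n :=
  Finset.sum_nonneg fun _ _ => sq_nonneg _

/-- The squared weight of the datum in `H^k`. -/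
noncomputable def wt (k : ℕ) (α : ℝ) (n : Fin d → ℤ) : ℝ :=
  (1 + sqNorm n) ^ k * (Real.sqrt (1 + sqNorm n) ^ (-α)) ^ 2

theorem wt_nonneg (α : ℝ) (n : Fin d → ℤ) : 0 ≤ wt k α n := by
  have := sqNorm_nonneg n
  unfold wt
  positivity

theorem wt_eq (α : ℝ) (n : Fin d → ℤ) :
    wt k α n = (Real.sqrt (1 + sqNorm n) ^ (2 * (α - k)))⁻¹ := by
  have h0 := sqNorm_nonneg n
  have h1 : 0 < Real.sqrt (1 + sqNorm n) := Real.sqrt_pos.2 (by linarith)
  have h2 : (1 + sqNorm n) ^ k = Real.sqrt (1 + sqNorm n) ^ ((2 : ℝ) * k) := by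
    rw [Real.rpow_mul h1.le, Real.rpow_natCast, Real.rpow_two, Real.sq_sqrt (by linarith)]
  unfold wt
  rw [h2, ← Real.rpow_natCast _ 2, ← Real.rpow_mul h1.le, ← Real.rpow_add h1,
    ← Real.rpow_neg h1.le]
  congr 1
  push_cast
  ring

theorem summable_wt {α : ℝ} (hα : (k : ℝ) + d / 2 < α) :
    Summable fun n : Fin d → ℤ => wt k α n := by
  refine (H203.summable_rpow_weight (d := d) (β := 2 * (α - k)) (by linarith)).congr fun n => ?_
  rw [wt_eq]

theorem datum_term {Ω : Type*} (g : (Fin d → ℤ) → Ω → ℂ) (α : ℝ) (a : (Fin d → ℤ) → ℂ) (ω : Ω)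
    (n : Fin d → ℤ) :
    (1 + sqNorm n) ^ k * ‖datum g α ω n - a n‖ ^ 2 =
      wt k α n * ‖g n ω - a n * ((Real.sqrt (1 + sqNorm n) ^ α : ℝ) : ℂ)‖ ^ 2 := by
  have h0 := sqNorm_nonneg n
  have h1 : 0 < Real.sqrt (1 + sqNorm n) := Real.sqrt_pos.2 (by linarith)
  have h2 : (0 : ℝ) < Real.sqrt (1 + sqNorm n) ^ (-α) := Real.rpow_pos_of_pos h1 _
  have h3 : Real.sqrt (1 + sqNorm n) ^ α * Real.sqrt (1 + sqNorm n) ^ (-α) = 1 := by
    rw [← Real.rpow_add h1, add_neg_cancel, Real.rpow_zero]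
  have h4 : datum g α ω n - a n = (g n ω - a n * ((Real.sqrt (1 + sqNorm n) ^ α : ℝ) : ℂ)) *
      ((Real.sqrt (1 + sqNorm n) ^ (-α) : ℝ) : ℂ) := by
    unfold datum
    rw [sub_mul, mul_assoc (a n), ← Complex.ofReal_mul, h3]
    simp
  rw [h4, norm_mul, Complex.norm_real, Real.norm_of_nonneg h2.le]
  unfold wt
  ring

/-- Every ball of `H^k` is charged by the law of the datum, for every `α > k + d / 2`. -/
theorem full_support {Ω : Type*} [MeasurableSpace Ω] (P : Measure Ω) [IsProbabilityMeasure P]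
    (g : (Fin d → ℤ) → Ω → ℂ) (hm : ∀ n, Measurable (g n)) (hind : iIndepFun g P)
    (hg : ∀ n, P.map (g n) = stdComplexGaussian) {α : ℝ} (hα : (k : ℝ) + d / 2 < α)
    {a : (Fin d → ℤ) → ℂ} (ha : MemSobolev k a) {ε : ℝ} (hε : 0 < ε) :
    0 < P {ω | MemSobolev k (datum g α ω) ∧ MemSobolev k (fun n => datum g α ω n - a n) ∧
      sobolevSq k (fun n => datum g α ω n - a n) < ε} := by
  have hb : Summable fun n : Fin d → ℤ => wt k α n *
      ‖a n * ((Real.sqrt (1 + sqNorm n) ^ α : ℝ) : ℂ)‖ ^ 2 := by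
    refine ha.congr fun n => ?_
    have h := datum_term (k := k) (fun _ _ => (0 : ℂ)) α a (0 : ℕ) n
    simp only [datum, zero_mul, zero_sub, norm_neg] at h
    exact h
  refine (ball_pos P g hm hind hg (wt_nonneg α) (summable_wt hα) _ hb hε).trans_le
    (measure_mono ?_)
  rintro ω ⟨h1, h2⟩
  simp_rw [← datum_term] at h1 h2
  refine ⟨?_, h1, h2⟩
  -- the datum itself
  refine Summable.of_nonneg_of_le (fun n => ?_) (fun n => ?_) ((h1.mul_left 2).add (ha.mul_left 2))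
  · have := sqNorm_nonneg n
    positivity
  · have h0 := sqNorm_nonneg n
    have h3 : ‖datum g α ω n‖ ≤ ‖datum g α ω n - a n‖ + ‖a n‖ := by
      simpa using norm_add_le (datum g α ω n - a n) (a n)
    have h4 : ‖datum g α ω n‖ ^ 2 ≤ 2 * ‖datum g α ω n - a n‖ ^ 2 + 2 * ‖a n‖ ^ 2 := by
      nlinarith [norm_nonneg (datum g α ω n), norm_nonneg (datum g α ω n - a n),
        norm_nonneg (a n), sq_nonneg (‖datum g α ω n - a n‖ - ‖a n‖)]
    calc (1 + sqNorm n) ^ k * ‖datum g α ω n‖ ^ 2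
        ≤ (1 + sqNorm n) ^ k * (2 * ‖datum g α ω n - a n‖ ^ 2 + 2 * ‖a n‖ ^ 2) := by gcongr
      _ = _ := by ring

end Vale.Agent.P139.R3.H842
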